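import Vale.Agent.P181.R2.H553.Defs

set_option autoImplicit false

open scoped TensorProduct
open MvPolynomial

namespace Vale.Agent.P181.H553

open Vale.Agent.P181 Vale.Agent.P181.H280 Vale.Agent.P181.H179

/-! ### Integrals -/

lemma integ_succ {n : ℕ} (c : Meas) (F : (Fin (n + 1) → Pt) → ℂ) :
    integ c F = ∑ a ∈ c.support, c a * integ c (fun p : Fin n → Pt => F (Fin.cons a p)) := by
  classical
  unfold integ
  simp_rw [Finset.mul_sum]
  rw [← Finset.sum_product']
  symm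
  refine Finset.sum_bij' (fun x _ => (Fin.cons x.1 x.2 : Fin (n + 1) → Pt))
    (fun p _ => (p 0, Fin.tail p)) ?_ ?_ ?_ ?_ ?_
  · rintro ⟨a, p⟩ h
    simp only [Finset.mem_product, Fintype.mem_piFinset] at h ⊢
    intro l
    refine Fin.cases ?_ (fun l => ?_) l
    · exact h.1
    · exact h.2 l
  · intro p h
    simp only [Finset.mem_product, Fintype.mem_piFinset] at h ⊢
    exact ⟨h 0, fun l => h l.succ⟩
  · rintro ⟨a, p⟩ h
    simp
  · intro p h
    simp
  · rintro ⟨a, p⟩ h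
    simp only [Fin.prod_univ_succ, Fin.cons_zero, Fin.cons_succ]
    ring

lemma integ_zero (c : Meas) (F : (Fin 0 → Pt) → ℂ) : integ c F = F Fin.elim0 := by
  classical
  unfold integ
  rw [Fintype.piFinset_of_isEmpty]
  simp only [Finset.univ_unique, Finset.univ_eq_empty, Finset.prod_empty, one_mul,
    Finset.sum_singleton]
  congr 1

/-- Double integral. -/
noncomputable def I2 (c : Meas) (G : Pt → Pt → ℂ) : ℂ :=
  ∑ p ∈ c.support, c p * ∑ q ∈ c.support, c q * G p q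

lemma I2_mul (c : Meas) (X : ℂ) (G : Pt → Pt → ℂ) :
    (∑ p ∈ c.support, c p * ∑ q ∈ c.support, c q * (X * G p q)) = X * I2 c G := by
  unfold I2
  simp only [Finset.mul_sum]
  refine Finset.sum_congr rfl (fun p _ => Finset.sum_congr rfl (fun q _ => ?_))
  ring

lemma integ_six (c : Meas) (G₁ G₂ G₃ : Pt → Pt → ℂ) :
    integ c (fun p : Fin 6 → Pt => G₁ (p 0) (p 1) * G₂ (p 2) (p 3) * G₃ (p 4) (p 5)) =
      I2 c G₁ * I2 c G₂ * I2 c G₃ := by
  simp only [integ_succ, integ_zero]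
  have e0 : ∀ (a b d e f g : Pt),
      ((Fin.cons a (Fin.cons b (Fin.cons d (Fin.cons e (Fin.cons f (Fin.cons g
        (Fin.elim0 : Fin 0 → Pt)))))) : Fin 6 → Pt)) = ![a, b, d, e, f, g] := by
    intro a b d e f g
    funext l
    fin_cases l <;> rfl
  simp only [e0, Matrix.cons_val]
  have h1 : ∀ a b d e : Pt, (∑ f ∈ c.support, c f * ∑ g ∈ c.support,
      c g * (G₁ a b * G₂ d e * G₃ f g)) = G₁ a b * I2 c G₃ * G₂ d e := by
    intro a b d e
    rw [I2_mul]
    ring
  simp only [h1]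
  have h2 : ∀ a b : Pt, (∑ d ∈ c.support, c d * ∑ e ∈ c.support,
      c e * (G₁ a b * I2 c G₃ * G₂ d e)) = I2 c G₃ * I2 c G₂ * G₁ a b := by
    intro a b
    rw [I2_mul]
    ring
  simp only [h2]
  rw [I2_mul]
  ring

lemma integ_sum {r : ℕ} (c : Meas) {κ : Type*} (s : Finset κ) (F : κ → (Fin r → Pt) → ℂ) :
    integ c (fun p => ∑ x ∈ s, F x p) = ∑ x ∈ s, integ c (F x) := by
  unfold integ
  simp only [Finset.mul_sum]
  exact Finset.sum_comm

lemma integ_smul {r : ℕ} (c : Meas) (z : ℂ) (F : (Fin r → Pt) → ℂ) :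
    integ c (fun p => z * F p) = z * integ c F := by
  unfold integ
  rw [Finset.mul_sum]
  refine Finset.sum_congr rfl (fun p _ => ?_)
  ring

/-- The two-point functions. -/
noncomputable def AA (a u v : ℕ) (c : Meas) : ℂ :=
  I2 c (fun p q => (p 0 * q 0) ^ (a - (u + v)) * (p 0 * q 1 - q 0 * p 1) ^ u *
    (p 0 * q 2 - q 0 * p 2) ^ v)

lemma bin (U W : ℂ) (n : ℕ) :
    (U - W) ^ n = ∑ m ∈ Finset.range (n + 1), (-1) ^ m * (n.choose m : ℂ) * (W ^ m * U ^ (n - m)) := by
  rw [sub_eq_add_neg, add_comm, add_pow]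
  refine Finset.sum_congr rfl (fun m _ => ?_)
  rw [neg_pow]
  ring

lemma I2_prod (c : Meas) (φ ψ : Pt → ℂ) :
    I2 c (fun p q => φ p * ψ q) = (c.sum fun p r => r * φ p) * (c.sum fun p r => r * ψ p) := by
  unfold I2
  rw [Finsupp.sum, Finsupp.sum, Finset.sum_mul]
  refine Finset.sum_congr rfl (fun p _ => ?_)
  rw [Finset.mul_sum, Finset.mul_sum]
  refine Finset.sum_congr rfl (fun q _ => ?_)
  ring

lemma I2_sum (c : Meas) {κ : Type*} (s : Finset κ) (F : κ → Pt → Pt → ℂ) :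
    I2 c (fun p q => ∑ x ∈ s, F x p q) = ∑ x ∈ s, I2 c (F x) := by
  unfold I2
  simp only [Finset.mul_sum]
  rw [Finset.sum_comm (s := s)]
  exact Finset.sum_congr rfl (fun p _ => Finset.sum_comm)

lemma AA_expand (a u v : ℕ) (h : u + v ≤ a) (c : Meas) :
    AA a u v c = ∑ d ∈ Finset.range (u + 1), ∑ e ∈ Finset.range (v + 1),
      ((-1) ^ d * (u.choose d : ℂ)) * ((-1) ^ e * (v.choose e : ℂ)) *
        (mom a d e c * mom a (u - d) (v - e) c) := by
  unfold AA
  have h1 : (fun p q : Pt => (p 0 * q 0) ^ (a - (u + v)) * (p 0 * q 1 - q 0 * p 1) ^ u *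
      (p 0 * q 2 - q 0 * p 2) ^ v) = fun p q => ∑ d ∈ Finset.range (u + 1),
        ∑ e ∈ Finset.range (v + 1), (((-1) ^ d * (u.choose d : ℂ)) * ((-1) ^ e * (v.choose e : ℂ))) *
          ((p 0 ^ (a - d - e) * p 1 ^ d * p 2 ^ e) *
            (q 0 ^ (a - (u - d) - (v - e)) * q 1 ^ (u - d) * q 2 ^ (v - e))) := by
    funext p q
    rw [bin, bin, mul_assoc, Finset.sum_mul_sum, Finset.mul_sum]
    refine Finset.sum_congr rfl (fun d hd => ?_)
    rw [Finset.mul_sum]
    refine Finset.sum_congr rfl (fun e he => ?_)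
    rw [Finset.mem_range] at hd he
    obtain ⟨d', rfl⟩ : ∃ d', u = d + d' := ⟨u - d, by omega⟩
    obtain ⟨e', rfl⟩ : ∃ e', v = e + e' := ⟨v - e, by omega⟩
    obtain ⟨n, rfl⟩ : ∃ n, a = n + (d + d' + (e + e')) := ⟨a - (d + d' + (e + e')), by omega⟩
    have e1 : n + (d + d' + (e + e')) - (d + d' + (e + e')) = n := by omega
    have e2 : n + (d + d' + (e + e')) - d - e = n + d' + e' := by omega
    have e3 : d + d' - d = d' := by omega
    have e4 : e + e' - e = e' := by omega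
    have e5 : n + (d + d' + (e + e')) - d' - e' = n + d + e := by omega
    rw [e1, e2, e3, e4, e5]
    ring
  rw [h1, I2_sum]
  refine Finset.sum_congr rfl (fun d _ => ?_)
  rw [I2_sum]
  refine Finset.sum_congr rfl (fun e _ => ?_)
  have h2 : I2 c (fun p q : Pt => (((-1) ^ d * (u.choose d : ℂ)) * ((-1) ^ e * (v.choose e : ℂ))) *
          ((p 0 ^ (a - d - e) * p 1 ^ d * p 2 ^ e) *
            (q 0 ^ (a - (u - d) - (v - e)) * q 1 ^ (u - d) * q 2 ^ (v - e)))) =
      (((-1) ^ d * (u.choose d : ℂ)) * ((-1) ^ e * (v.choose e : ℂ))) *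
        I2 c (fun p q : Pt => (p 0 ^ (a - d - e) * p 1 ^ d * p 2 ^ e) *
            (q 0 ^ (a - (u - d) - (v - e)) * q 1 ^ (u - d) * q 2 ^ (v - e))) := by
    rw [← I2_mul]
    rfl
  rw [h2, I2_prod]
  rfl

lemma AA_eq (a u v : ℕ) (h : u + v ≤ a) (h0 : 0 < u + v) (he : Even (u + v)) (c : Meas)
    (hs : ∀ u₁ v₁ u₂ v₂, 0 < u₁ + v₁ → 0 < u₂ + v₂ → u₁ + u₂ + (v₁ + v₂) = u + v →
      mom a u₁ v₁ c * mom a u₂ v₂ c = 0) :
    AA a u v c = 2 * (mom a 0 0 c * mom a u v c) := by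
  rw [AA_expand a u v h, ← Finset.sum_product']
  have h1 : ∀ x ∈ Finset.range (u + 1) ×ˢ Finset.range (v + 1),
      x ≠ (0, 0) → x ≠ (u, v) → ((-1) ^ x.1 * (u.choose x.1 : ℂ)) *
        ((-1) ^ x.2 * (v.choose x.2 : ℂ)) * (mom a x.1 x.2 c * mom a (u - x.1) (v - x.2) c) = 0 := by
    rintro ⟨d, e⟩ hx h1 h2
    simp only [Finset.mem_product, Finset.mem_range] at hx
    rw [hs d e (u - d) (v - e), mul_zero]
    · rcases Nat.eq_zero_or_pos (d + e) with h3 | h3
      · exact absurd (Prod.ext (by simp only; omega) (by simp only; omega)) h1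
      · exact h3
    · rcases Nat.eq_zero_or_pos (u - d + (v - e)) with h3 | h3
      · exact absurd (Prod.ext (by simp only; omega) (by simp only; omega)) h2
      · exact h3
    · omega
  have h2 : ((0, 0) : ℕ × ℕ) ≠ (u, v) := by
    intro h3
    have h4 := congrArg Prod.fst h3
    have h5 := congrArg Prod.snd h3
    simp only at h4 h5
    omega
  rw [← Finset.sum_subset (s₁ := {((0, 0) : ℕ × ℕ), (u, v)})]
  · rw [Finset.sum_pair h2]
    simp only [pow_zero, Nat.choose_zero_right, Nat.cast_one, one_mul, Nat.sub_zero,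
      Nat.choose_self, mul_one, Nat.sub_self]
    have h3 : ((-1 : ℂ)) ^ u * (-1) ^ v = 1 := by
      rw [← pow_add]
      exact he.neg_one_pow
    rw [h3]
    ring
  · intro x hx
    simp only [Finset.mem_insert, Finset.mem_singleton] at hx
    simp only [Finset.mem_product, Finset.mem_range]
    rcases hx with rfl | rfl
    · exact ⟨Nat.succ_pos _, Nat.succ_pos _⟩
    · exact ⟨Nat.lt_succ_self _, Nat.lt_succ_self _⟩
  · intro x hx hx'
    simp only [Finset.mem_insert, Finset.mem_singleton, not_or] at hx'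
    exact h1 x hx hx'.1 hx'.2

end Vale.Agent.P181.H553
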