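import Vale.Agent.P181.R2.H553.Defs
import Vale.Agent.P181.R2.H959.FDefs

/-!
Corner family: symmetric invariants of five points of `ℂ^3`.
-/

set_option autoImplicit false

open scoped TensorProduct
open MvPolynomial

namespace Vale.Agent.P181.H553

open Vale.Agent.P181 Vale.Agent.P181.H280 Vale.Agent.P181.H179

/-- The determinant of the points `i, j, k` among `r` points. -/
noncomputable def br {r : ℕ} (i j k : Fin r) : MvPolynomial (Fin r × Fin 3) ℂ :=
  Matrix.det (Matrix.of fun u s : Fin 3 => X (![i, j, k] u, s))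

/-- The value of a polynomial at `r` points. -/
noncomputable def evp {r : ℕ} (Q : MvPolynomial (Fin r × Fin 3) ℂ) (p : Fin r → Pt) : ℂ :=
  eval (fun s : Fin r × Fin 3 => p s.1 s.2) Q

/-- The pentagon product. -/
noncomputable def Wp (σ : Equiv.Perm (Fin 5)) : MvPolynomial (Fin 5 × Fin 3) ℂ :=
  ∏ i : Fin 5, br (σ i) (σ (i + 1)) (σ (i + 2))

/-- Degree 6 in each point. -/
noncomputable def Gp : MvPolynomial (Fin 5 × Fin 3) ℂ := ∑ σ : Equiv.Perm (Fin 5), Wp σ ^ 2

/-- Degree 18 in each point. -/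
noncomputable def Kp : MvPolynomial (Fin 5 × Fin 3) ℂ := ∑ σ : Equiv.Perm (Fin 5), Wp σ ^ 6

/-- Degree 36 in each point. -/
noncomputable def Dp : MvPolynomial (Fin 5 × Fin 3) ℂ :=
  ∏ e : Fin 3 ↪ Fin 5, br (e 0) (e 1) (e 2)

/-- The family, degree `60 N` in each point. -/
noncomputable def FF (N : ℕ) (t : Fin N × Fin N) : MvPolynomial (Fin 5 × Fin 3) ℂ :=
  Dp ^ ((t.1 : ℕ) + 1) * Kp ^ (t.2 : ℕ) * Gp ^ (10 * N - 6 * ((t.1 : ℕ) + 1) - 3 * (t.2 : ℕ))

/-- The four points of the frame. -/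
def frame : Fin 4 → Pt := ![![1, 0, 0], ![0, 1, 0], ![0, 0, 1], ![1, 1, 1]]

/-- Five points: `p` and the frame. -/
def five (p : Pt) : Fin 5 → Pt := Fin.cons p frame

end Vale.Agent.P181.H553
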