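import Vale.Agent.P181.R2.H330.CRA1
import Vale.Agent.P181.R2.H399.CRA3
import Vale.Agent.P181.R2.H188.CRA4
import Vale.Agent.P181.R2.H155.Even
import Vale.Agent.P181.R2.H849.CRE
import Vale.Agent.P181.R2.H911.CR7
import Vale.Agent.P181.R2.H415.CRC1
import Vale.Agent.P181.R2.H182.PtMul
import Vale.Agent.P181.R2.H747.CRA2
import Vale.Agent.P181.R2.H853.CRC0
import Vale.Agent.P181.R2.H556.PosSeeds

/-!
All partitions with three rows and a long third row.
-/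

set_option autoImplicit false

open scoped TensorProduct
open MvPolynomial

namespace Vale.Agent.P181.H553

open Vale.Agent.P181 Vale.Agent.P181.H280 Vale.Agent.P181.H179 Vale.Agent.P181.FR

theorem Pos.ptmul {B e c : ℕ} {lam mu : Fin 3 → ℕ} (h : Pos B e 3 mu) (h' : Pos B c 3 lam) :
    Pos B (e + c) 3 (mu + lam) := by
  obtain ⟨y, hy, hy0⟩ := h
  obtain ⟨x, hx, hx0⟩ := h'
  obtain ⟨L, hL⟩ := exists_ptmul (c := c) y
  refine ⟨L x, ?_, fun h0 => hx0 ?_⟩
  · intro g hg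
    apply ptv_sep
    intro p
    have h1 : ptv y (fun j => Matrix.vecMul (p j) g) = (∏ i, g i i ^ mu i) * ptv y p := by
      rw [← ptv_act, hy g hg, ptv_smul]
    have h2 : ptv x (fun j => Matrix.vecMul (p j) g) = (∏ i, g i i ^ lam i) * ptv x p := by
      rw [← ptv_act, hx g hg, ptv_smul]
    rw [ptv_act, ptv_smul, hL, hL, h1, h2]
    have h3 : ∏ i, g i i ^ (mu + lam) i = (∏ i, g i i ^ mu i) * ∏ i, g i i ^ lam i := by
      rw [← Finset.prod_mul_distrib]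
      exact Finset.prod_congr rfl (fun i _ => pow_add _ _ _)
    rw [h3]
    ring
  · apply ptv_domain y x hy0
    intro p
    rw [← hL, h0, ptv_zero]

/-- The corner family. -/
theorem corner {N m : ℕ} (hm : 2 * m ≤ N * N) :
    2 ^ m ≤ plethMult (5 * m) (60 * N) 3 (fun _ => 100 * N * m) :=
  H188C.corner_of (fun t => FF_multi t) (fun t => FF_semi t) (fun t σ p => FF_symm t σ p)
    (fun t p _ _ hij h => FF_zero t p hij h) FF_indep
    (fun F hs hz h => H399.integ_line F hs hz h) hm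

theorem pos_four (n : ℕ) : Pos 4 (3 * n) 3 (fun _ => 4 * n) :=
  pos_four_of (fun Q hQ hS p hp => pos_of_sum Q hQ hS p hp) n

theorem pos_class {a b g1 g2 l3 : ℕ} (hb : 30 ≤ b) (h : g1 + 2 * g2 + 3 * l3 = a * b) :
    ∃ c k1 k2 k3 : ℕ, c ≤ 69 ∧ c % 2 = a % 2 ∧ k1 ≤ g1 ∧ k2 ≤ g2 ∧ k1 % 2 = g1 % 2 ∧
      k2 % 2 = g2 % 2 ∧ k1 + 2 * k2 + 3 * k3 = c * b ∧ Pos b c 3 ![k3 + k2 + k1, k3 + k2, k3] :=
  H911.pos_class_of (fun h h1 => Pos.ptmul h h1)
    (fun h nu h1 h2 h3 => H155.pos_even h nu h1 h2 h3) pos_four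
    (H556C.pos_five33 fun Q hQ hS p hp => pos_of_sum Q hQ hS p hp)
    (H556C.pos_five20 fun Q hQ hS p hp => pos_of_sum Q hQ hS p hp)
    (H556C.pos_five16 fun Q hQ hS p hp => pos_of_sum Q hQ hS p hp)
    (H556C.pos_seven10 fun Q hQ hS p hp => pos_of_sum Q hQ hS p hp)
    (H556C.pos_seven8 fun Q hQ hS p hp => pos_of_sum Q hQ hS p hp) hb h

/-- **All partitions with three rows and a long third row.** -/
theorem all_long {a b L N : ℕ} (lam : Fin 3 → ℕ) (hsum : lam 0 + lam 1 + lam 2 = a * b)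
    (h21 : lam 2 ≤ lam 1) (h10 : lam 1 ≤ lam 0) (hL : b + 1 ≤ 2 ^ L) (hN : 4 * a * L ≤ N * N)
    (hN0 : 0 < N) (ha : 60 * N + 72 ≤ a) (hb : 10 * a * L + 30 ≤ b)
    (h3 : 200 * a * L * N + 23 * b ≤ lam 2) :
    plethMult a b 3 lam ≤ plethMult b a 3 lam :=
  all_long_of (fun _ h => corner h) (fun h nu h1 h2 h3 => H155.pos_even h nu h1 h2 h3)
    (fun h h1 => Pos.ptmul h h1) (fun h h1 => pos_class h h1)
    lam hsum h21 h10 hL hN hN0 ha hb h3

end Vale.Agent.P181.H553
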