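import Mathlib.Tactic
import Mathlib.Data.Complex.Basic

/-!
The combinatorial design of the family: indices, sizes and the table of moments.
-/

set_option autoImplicit false

namespace Vale.Agent.P181.H553

/-- The exponent of `z`. -/
def iR (N r : ℕ) : ℕ := 9 * N + r / N

/-- The exponent of `y`. -/
def jR (N r β : ℕ) : ℕ := 2 * N + iR N r % 2 + 4 * (r % N) + 2 * β

lemma iR_bd {N r : ℕ} (hr : r < N * N) : 9 * N ≤ iR N r ∧ iR N r < 10 * N := by
  have h : r / N < N := Nat.div_lt_of_lt_mul hr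
  unfold iR
  generalize r / N = q at h ⊢
  omega

lemma jR_bd {N r β : ℕ} (hN : 0 < N) (hβ : β < 2) : 2 * N ≤ jR N r β ∧ jR N r β < 6 * N := by
  have h : r % N < N := Nat.mod_lt _ hN
  unfold jR
  have h2 : iR N r % 2 < 2 := Nat.mod_lt _ (by norm_num)
  generalize r % N = q at h ⊢
  generalize iR N r % 2 = e at h2 ⊢
  omega

lemma even_ij (N r β : ℕ) : Even (iR N r + jR N r β) := by
  unfold jR
  rw [Nat.even_iff]
  omega

lemma ij_inj {N r r' β β' : ℕ} (hβ : β < 2) (hβ' : β' < 2) (h1 : iR N r = iR N r')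
    (h2 : jR N r β = jR N r' β') : r = r' ∧ β = β' := by
  unfold jR at h2
  rw [h1] at h2
  unfold iR at h1
  have h3 : r / N = r' / N := by omega
  have h4 : r % N = r' % N := by omega
  have h5 : r = r' := by
    rw [← Nat.div_add_mod r N, ← Nat.div_add_mod r' N, h3, h4]
  refine ⟨h5, ?_⟩
  subst h5
  omega

open Classical in
/-- The table of moments. -/
noncomputable def tab (N m : ℕ) (ε : Fin m → Fin 2) (u v : ℕ) : ℂ :=
  if (u = 0 ∧ v = 0) ∨ (∃ r : Fin m, u = jR N r (ε r) ∧ v = iR N r) ∨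
    (v = 0 ∧ ∃ r : Fin m, ∃ β : Fin 2, u = 36 * N + iR N r - jR N r β) ∨ (u = 0 ∧ v = 36 * N)
  then 1 else 0

variable {N m : ℕ}

lemma size_cases (hN : 0 < N) (hm : m ≤ N * N) (ε : Fin m → Fin 2) {u v : ℕ}
    (h : tab N m ε u v ≠ 0) : (u = 0 ∧ v = 0) ∨ (11 * N ≤ u + v ∧ u + v + 2 ≤ 16 * N) ∨
      (v = 0 ∧ 39 * N < u ∧ u < 44 * N) ∨ (u = 0 ∧ v = 36 * N) := by
  unfold tab at h
  rw [ne_eq, ite_eq_right_iff, Classical.not_imp] at h
  rcases h.1 with h1 | ⟨r, h1, h2⟩ | ⟨h1, r, β, h2⟩ | h1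
  · exact Or.inl h1
  · right; left
    have h3 := iR_bd (N := N) (r := r) (lt_of_lt_of_le r.2 hm)
    have h4 := jR_bd (N := N) (r := r) (β := ε r) hN (ε r).2
    omega
  · right; right; left
    have h3 := iR_bd (N := N) (r := r) (lt_of_lt_of_le r.2 hm)
    have h4 := jR_bd (N := N) (r := r) (β := β) hN β.2
    omega
  · right; right; right
    exact h1

lemma tab_zero (ε : Fin m → Fin 2) : tab N m ε 0 0 = 1 := by
  unfold tab
  rw [if_pos]
  exact Or.inl ⟨rfl, rfl⟩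

lemma tab_K0 (ε : Fin m → Fin 2) : tab N m ε 0 (36 * N) = 1 := by
  unfold tab
  rw [if_pos]
  exact Or.inr (Or.inr (Or.inr ⟨rfl, rfl⟩))

lemma tab_K (ε : Fin m → Fin 2) (r : Fin m) (β : Fin 2) :
    tab N m ε (36 * N + iR N r - jR N r β) 0 = 1 := by
  unfold tab
  rw [if_pos]
  exact Or.inr (Or.inr (Or.inl ⟨rfl, r, β, rfl⟩))

lemma tab_private (hN : 0 < N) (hm : m ≤ N * N) (ε : Fin m → Fin 2) (r : Fin m) (β : Fin 2) :
    tab N m ε (jR N r β) (iR N r) = if β = ε r then 1 else 0 := by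
  have h3 := iR_bd (N := N) (r := r) (lt_of_lt_of_le r.2 hm)
  have h4 := jR_bd (N := N) (r := r) (β := β) hN β.2
  by_cases h : β = ε r
  · rw [if_pos h]
    unfold tab
    rw [if_pos]
    exact Or.inr (Or.inl ⟨r, by rw [h], rfl⟩)
  · rw [if_neg h]
    unfold tab
    rw [if_neg]
    rintro (h1 | ⟨r', h1, h2⟩ | ⟨h1, -⟩ | h1)
    · omega
    · obtain ⟨h5, h6⟩ := ij_inj β.2 (ε r').2 h2 h1
      apply h
      have h7 : r = r' := Fin.ext h5
      subst h7
      exact Fin.ext h6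
    · omega
    · omega

/-- Two positive sizes of the table never add up to one of the three sizes. -/
lemma tab_mul (hN : 0 < N) (hm : m ≤ N * N) (ε : Fin m → Fin 2) {u v u' v' K : ℕ}
    (h : 0 < u + v) (h' : 0 < u' + v') (hs : u + u' + (v + v') = K)
    (hK : (K < 16 * N) ∨ (39 * N < K ∧ K < 44 * N) ∨ K = 36 * N) :
    tab N m ε u v * tab N m ε u' v' = 0 := by
  by_contra hne
  have h1 := size_cases hN hm ε (left_ne_zero_of_mul hne)
  have h2 := size_cases hN hm ε (right_ne_zero_of_mul hne)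
  omega

lemma tab_row (hN : 0 < N) (hm : m ≤ N * N) (ε : Fin m → Fin 2) {u v : ℕ}
    (hs : 39 * N < u + v ∧ u + v < 44 * N) (hv : 0 < v) : tab N m ε u v = 0 := by
  by_contra hne
  have h1 := size_cases hN hm ε hne
  omega

lemma tab_col (hN : 0 < N) (hm : m ≤ N * N) (ε : Fin m → Fin 2) {u v : ℕ}
    (hs : u + v = 36 * N) (hu : 0 < u) : tab N m ε u v = 0 := by
  by_contra hne
  have h1 := size_cases hN hm ε hne
  omega

end Vale.Agent.P181.H553
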