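import Vale.Agent.P181.H179.Mul
import Mathlib.RingTheory.MvPolynomial.WeightedHomogeneous

/-!
Lower bounds for the multiplicities of the target `Sym^b(Sym^a ℂ^3)`: highest weight vectors as
functions of finitely supported measures on the dual space.
-/

set_option autoImplicit false

open scoped TensorProduct
open MvPolynomial

namespace Vale.Agent.P181.H553

open Vale.Agent.P181 Vale.Agent.P181.H280 Vale.Agent.P181.H179

/-- Points `(x, y, z)` of the dual space of `ℂ^3`. -/
abbrev Pt : Type := Fin 3 → ℂ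

/-- The functional `v ↦ ∑ p_i v_i`. -/
noncomputable def lin (p : Pt) : Module.Dual ℂ (Fin 3 → ℂ) := ∑ i, p i • LinearMap.proj i

/-- Finitely supported measures on the dual space. -/
abbrev Meas : Type := Pt →₀ ℂ

/-- The functional on `Sym^a ℂ^3` defined by a measure. -/
noncomputable def ev (a : ℕ) (c : Meas) : Module.Dual ℂ (Sym[ℂ]^a (Fin 3 → ℂ)) :=
  c.sum fun p r => r • evalPow a (lin p)

/-- The moment of `x^(a-u-v) y^u z^v`. -/
noncomputable def mom (a u v : ℕ) (c : Meas) : ℂ :=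
  c.sum fun p r => r * (p 0 ^ (a - u - v) * p 1 ^ u * p 2 ^ v)

/-- The integral of a function of `r` points against `c × ⋯ × c`. -/
noncomputable def integ {r : ℕ} (c : Meas) (f : (Fin r → Pt) → ℂ) : ℂ :=
  ∑ p ∈ Fintype.piFinset (fun _ : Fin r => c.support), (∏ l, c (p l)) * f p

/-- `f` is the function of a highest weight vector of weight `lam` in `Sym^d(Sym^a ℂ^3)`. -/
def HWF (a d : ℕ) (lam : Fin 3 → ℕ) (f : Meas → ℂ) : Prop :=
  ∃ x : Pleth d a 3, x ∈ hwSpace lam (plethAct d a 3) ∧ ∀ c, evalPow d (ev a c) x = f c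

/-- `Q` is homogeneous of degree `a` in each of the `r` points. -/
def Multi (a r : ℕ) (Q : MvPolynomial (Fin r × Fin 3) ℂ) : Prop :=
  ∀ l : Fin r, IsWeightedHomogeneous (fun s : Fin r × Fin 3 => if s.1 = l then 1 else 0) Q a

/-- `Q` is multiplied by `∏ g_ii^lam_i` under the upper triangular matrices. -/
def Semi {r : ℕ} (lam : Fin 3 → ℕ) (Q : MvPolynomial (Fin r × Fin 3) ℂ) : Prop :=
  ∀ g : Matrix (Fin 3) (Fin 3) ℂ, IsBorel g → ∀ p : Fin r → Pt,
    eval (fun s : Fin r × Fin 3 => Matrix.vecMul (p s.1) g s.2) Q =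
      (∏ i, g i i ^ lam i) * eval (fun s : Fin r × Fin 3 => p s.1 s.2) Q

end Vale.Agent.P181.H553
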