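import Vale.Agent.P181.R2.H553.Rows
import Vale.Agent.P181.R2.H553.Comb

/-!
Products of the functions on six points with one fixed function: a lower bound `2^m` for the
multiplicities of `Sym^b(Sym^a ℂ^3)`, and the comparison with the crude upper bound.
-/

set_option autoImplicit false

open scoped TensorProduct
open MvPolynomial

namespace Vale.Agent.P181.H553

open Vale.Agent.P181 Vale.Agent.P181.H280 Vale.Agent.P181.H179

/-- Functions that are polynomials on lines. -/
def LP (f : Meas → ℂ) : Prop :=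
  ∀ c c' : Meas, ∃ P : Polynomial ℂ, ∀ τ : ℂ, f (c + τ • c') = P.eval τ

lemma LP.one : LP 1 := fun _ _ => ⟨1, fun _ => by simp⟩

lemma LP.zero : LP 0 := fun _ _ => ⟨0, fun _ => by simp⟩

lemma LP.mul {f g : Meas → ℂ} (hf : LP f) (hg : LP g) : LP (f * g) := by
  intro c c'
  obtain ⟨P, hP⟩ := hf c c'
  obtain ⟨R, hR⟩ := hg c c'
  exact ⟨P * R, fun τ => by rw [Pi.mul_apply, hP, hR, Polynomial.eval_mul]⟩

lemma LP.add {f g : Meas → ℂ} (hf : LP f) (hg : LP g) : LP (f + g) := by
  intro c c'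
  obtain ⟨P, hP⟩ := hf c c'
  obtain ⟨R, hR⟩ := hg c c'
  exact ⟨P + R, fun τ => by rw [Pi.add_apply, hP, hR, Polynomial.eval_add]⟩

lemma LP.smul {f : Meas → ℂ} (hf : LP f) (r : ℂ) : LP (r • f) := by
  intro c c'
  obtain ⟨P, hP⟩ := hf c c'
  exact ⟨Polynomial.C r * P, fun τ => by
    rw [Pi.smul_apply, hP, Polynomial.eval_mul, Polynomial.eval_C, smul_eq_mul]⟩

lemma LP.eq_zero {f g : Meas → ℂ} (hf : LP f) (hg : LP g) (n : f ≠ 0) (h : f * g = 0) : g = 0 := by
  by_contra n₂
  obtain ⟨c₁, hc₁⟩ := Function.ne_iff.1 n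
  obtain ⟨c₂, hc₂⟩ := Function.ne_iff.1 n₂
  obtain ⟨P, hP⟩ := hf c₁ (c₂ - c₁)
  obtain ⟨R, hR⟩ := hg c₁ (c₂ - c₁)
  have hP0 : P ≠ 0 := by
    rintro rfl
    have := hP 0
    rw [zero_smul, add_zero, Polynomial.eval_zero] at this
    exact hc₁ this
  have hR0 : R ≠ 0 := by
    rintro rfl
    have := hR 1
    rw [one_smul, add_sub_cancel, Polynomial.eval_zero] at this
    exact hc₂ this
  refine mul_ne_zero hP0 hR0 (Polynomial.funext fun τ => ?_)
  have := congrFun h (c₁ + τ • (c₂ - c₁))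
  rw [Pi.mul_apply, hP, hR, Pi.zero_apply] at this
  rw [Polynomial.eval_mul, this, Polynomial.eval_zero]

lemma hwf_prod {ι : Type} [DecidableEq ι] {a d : ℕ} {lam : Fin 3 → ℕ} {E : Meas → ℂ}
    (hE : HWF a d lam E) (s : Finset ι) (w : ι → Fin 3 → ℕ) (f : ι → Meas → ℂ)
    (h : ∀ i, HWF a 6 (w i) (f i)) :
    HWF a (d + 6 * s.card) (lam + ∑ i ∈ s, w i) (E * ∏ i ∈ s, f i) := by
  induction s using Finset.induction_on with
  | empty =>
    rw [Finset.card_empty, Finset.sum_empty, Finset.prod_empty, mul_one, mul_zero, add_zero,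
      add_zero]
    exact hE
  | insert i s hi ih =>
    have h1 := ih.mul (h i)
    have e1 : d + 6 * s.card + 6 = d + 6 * (insert i s).card := by
      rw [Finset.card_insert_of_notMem hi]
      ring
    have e2 : lam + ∑ i ∈ s, w i + w i = lam + ∑ i ∈ insert i s, w i := by
      rw [Finset.sum_insert hi]
      abel
    rw [e1, e2] at h1
    have e3 : (E * ∏ i ∈ s, f i) * f i = E * ∏ i ∈ insert i s, f i := by
      rw [Finset.prod_insert hi]
      ring
    rw [e3] at h1
    exact h1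

/-- The weight of the functions of index `r`. -/
def wt (a N r : ℕ) : Fin 3 → ℕ :=
  ![6 * a - 2 * (iR N r + 36 * N), iR N r + 36 * N, iR N r + 36 * N]

lemma six_family {a N m : ℕ} (hN : 0 < N) (hm : m ≤ N * N) (hNa : 46 * N ≤ a) :
    ∃ f : Fin m → Fin 2 → Meas → ℂ,
      (∀ (r : Fin m) (β : Fin 2), HWF a 6 (wt a N r) (f r β)) ∧
      ∀ ε : Fin m → Fin 2, ∃ c : Meas, ∀ (r : Fin m) (β : Fin 2),
        f r β c = if β = ε r then 8 * (-1) ^ iR N r else 0 := by
  have hbd : ∀ r : Fin m, ∀ β : Fin 2, 9 * N ≤ iR N r ∧ iR N r < 10 * N ∧ 2 * N ≤ jR N r β ∧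
      jR N r β < 6 * N := fun r β =>
    ⟨(iR_bd (lt_of_lt_of_le r.2 hm)).1, (iR_bd (lt_of_lt_of_le r.2 hm)).2,
      (jR_bd hN β.2).1, (jR_bd hN β.2).2⟩
  have hex : ∀ r : Fin m, ∀ β : Fin 2, _ := fun r β =>
    exists_six (a := a) (K₀ := 36 * N) (i := iR N r) (j := jR N r β)
      (by have := hbd r β; omega) (by omega) (even_ij N r β) ⟨18 * N, by ring⟩
      (by have := hbd r β; omega) (by have := hbd r β; omega) (by have := hbd r β; omega)
  choose f hf hv using hex
  refine ⟨f, hf, fun ε => ?_⟩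
  obtain ⟨c, hc⟩ := exists_meas a (tab N m ε)
  refine ⟨c, fun r β => ?_⟩
  have hb := hbd r β
  have hmul : ∀ K : ℕ, K ≤ a → ((K < 16 * N) ∨ (39 * N < K ∧ K < 44 * N) ∨ K = 36 * N) →
      ∀ u v u' v', 0 < u + v → 0 < u' + v' → u + u' + (v + v') = K →
        mom a u v c * mom a u' v' c = 0 := by
    intro K hKa hK u v u' v' h1 h2 h3
    rw [hc u v (by omega), hc u' v' (by omega)]
    exact tab_mul hN hm ε h1 h2 h3 hK
  rw [hv r β c (hmul _ (by omega) (by omega)) (hmul _ (by omega) (by omega))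
    (hmul _ (by omega) (by omega)) ?_ ?_]
  · rw [hc 0 0 (by omega), hc _ _ (by omega), hc _ _ (by omega), hc _ _ (by omega),
      tab_zero, tab_K0, tab_K, tab_private hN hm]
    split_ifs <;> ring
  · intro u v h1 h2
    rw [hc u v (by omega)]
    exact tab_row hN hm ε (by omega) h2
  · intro u v h1 h2
    rw [hc u v (by omega)]
    exact tab_col hN hm ε h1 h2

/-- The lower bound. -/
theorem two_pow_le {a d N m : ℕ} (hN : 0 < N) (hm : m ≤ N * N) (hNa : 46 * N ≤ a)
    {l : Fin 3 → ℕ} {E : Meas → ℂ} (hE0 : E ≠ 0) (hE : HWF a d l E) :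
    2 ^ m ≤ plethMult (d + 6 * m) a 3 (l + ∑ r : Fin m, wt a N r) := by
  obtain ⟨f, hf, hc⟩ := six_family hN hm hNa
  have h := card_le (a := a) (d := d + 6 * m) (lam := l + ∑ r : Fin m, wt a N r)
    (ι := Fin m → Fin 2) (fun ε => E * ∏ r, f r (ε r)) (fun ε => by
      have := hwf_prod hE (Finset.univ : Finset (Fin m)) (fun r => wt a N r)
        (fun r => f r (ε r)) (fun r => hf r (ε r))
      rwa [Finset.card_univ, Fintype.card_fin] at this) ?_
  · rwa [Fintype.card_fun, Fintype.card_fin, Fintype.card_fin] at h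
  · rw [Fintype.linearIndependent_iff]
    intro g hg ε
    have hLP : ∀ s : Finset (Fin m → Fin 2), LP (∑ ε ∈ s, g ε • ∏ r, f r (ε r)) := by
      intro s
      refine Finset.sum_induction _ LP (fun _ _ => LP.add) LP.zero fun ε _ => LP.smul ?_ _
      exact Finset.prod_induction _ LP (fun _ _ => LP.mul) LP.one
        fun r _ => HWF.line (hf r (ε r))
    have h1 : E * ∑ ε, g ε • ∏ r, f r (ε r) = 0 := by
      rw [← hg, Finset.mul_sum]
      exact Finset.sum_congr rfl fun ε _ => by rw [mul_smul_comm]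
    have h2 := LP.eq_zero (HWF.line hE) (hLP Finset.univ) hE0 h1
    obtain ⟨c, hcε⟩ := hc ε
    have h3 := congrFun h2 c
    rw [Finset.sum_apply, Finset.sum_eq_single ε] at h3
    · rw [Pi.smul_apply, Finset.prod_apply, Pi.zero_apply, smul_eq_mul, mul_eq_zero] at h3
      rcases h3 with h3 | h3
      · exact h3
      · rw [Finset.prod_eq_zero_iff] at h3
        obtain ⟨r, -, hr⟩ := h3
        rw [hcε, if_pos rfl] at hr
        exact absurd hr (mul_ne_zero (by norm_num) (pow_ne_zero _ (by norm_num)))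
    · intro ε' _ hne
      obtain ⟨r, hr⟩ := Function.ne_iff.1 hne
      rw [Pi.smul_apply, Finset.prod_apply, Finset.prod_eq_zero (Finset.mem_univ r), smul_zero]
      rw [hcε, if_neg hr]
    · intro h
      exact absurd (Finset.mem_univ ε) h

/-- Comparison with the crude upper bound. -/
theorem bulk {a b L N : ℕ} {lam : Fin 3 → ℕ} (hsum : lam 0 + lam 1 + lam 2 = a * b)
    (hL : b + 1 ≤ 2 ^ L) (hm : 2 * a * L ≤ N * N) (hNa : 46 * N ≤ a) (hN : 0 < N)
    (h21 : lam 2 ≤ lam 1) (hne : lam 1 ≠ lam 2 + 1)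
    (ht : 46 * N * (2 * a * L) + 13 ≤ lam 2)
    (hgap : lam 1 + b + (a - 1) * (12 * a * L + 14) ≤ lam 0) :
    plethMult a b 3 lam ≤ plethMult b a 3 lam := by
  set m := 2 * a * L with hmdef
  have hup : plethMult a b 3 lam ≤ 2 ^ m := by
    refine (plethMult_le_pow a b lam).trans ?_
    calc ((b + 1) ^ 2) ^ a ≤ ((2 ^ L) ^ 2) ^ a :=
          Nat.pow_le_pow_left (Nat.pow_le_pow_left hL 2) a
      _ = 2 ^ m := by
          rw [← pow_mul, ← pow_mul]
          congr 1
          rw [hmdef]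
          ring
  set S := ∑ r : Fin m, (iR N r + 36 * N) with hS
  have hxr : ∀ r : Fin m, iR N r + 36 * N ≤ 46 * N := fun r => by
    have := iR_bd (N := N) (r := r) (lt_of_lt_of_le r.2 hm)
    omega
  have hSle : S ≤ 46 * N * m := by
    have h1 : S ≤ ∑ _r : Fin m, 46 * N := Finset.sum_le_sum fun r _ => hxr r
    rw [Finset.sum_const, Finset.card_univ, Fintype.card_fin, smul_eq_mul] at h1
    linarith [mul_comm m (46 * N)]
  have hS0 : ∑ r : Fin m, (6 * a - 2 * (iR N r + 36 * N)) + 2 * S = 6 * a * m := by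
    rw [hS, Finset.mul_sum, ← Finset.sum_add_distrib]
    have h1 : ∀ r ∈ (Finset.univ : Finset (Fin m)),
        6 * a - 2 * (iR N r + 36 * N) + 2 * (iR N r + 36 * N) = 6 * a := fun r _ => by
      have := hxr r
      omega
    rw [Finset.sum_congr rfl h1, Finset.sum_const, Finset.card_univ, Fintype.card_fin,
      smul_eq_mul]
    ring
  obtain ⟨a', rfl⟩ : ∃ a', a = a' + 1 := ⟨a - 1, by omega⟩
  rw [Nat.add_sub_cancel] at hgap
  have h12 : 12 * (a' + 1) * L = 6 * m := by
    rw [hmdef]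
    ring
  rw [h12] at hgap
  have hb1 : 2 * lam 1 + lam 2 + a' * (6 * m + 14) ≤ a' * b := by
    have h1 : (a' + 1) * b = a' * b + b := by ring
    rw [h1] at hsum
    omega
  have hb2 : 6 * m ≤ b := by
    by_contra hlt
    have h1 : a' * b ≤ a' * (6 * m + 14) := Nat.mul_le_mul_left _ (by omega)
    omega
  obtain ⟨d, hd⟩ : ∃ d, b = d + 6 * m := ⟨b - 6 * m, by omega⟩
  have hb3 : 2 * lam 1 + lam 2 + 14 * a' ≤ a' * d := by
    have h1 : a' * (6 * m + 14) = a' * (6 * m) + 14 * a' := by ring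
    have h2 : a' * b = a' * d + a' * (6 * m) := by rw [hd]; ring
    rw [h1, h2] at hb1
    omega
  obtain ⟨E, hE0, hE⟩ := exists_E (a := a' + 1) (d := d) (s := lam 1 - S) (t := lam 2 - S)
    (by omega) (by omega) (by omega) (by omega) (by
      rw [Nat.add_sub_cancel]
      omega)
  have hlow := two_pow_le hN hm hNa hE0 hE
  have hw : ![(a' + 1) * d - (lam 1 - S) - (lam 2 - S), lam 1 - S, lam 2 - S] +
      ∑ r : Fin m, wt (a' + 1) N r = lam := by
    funext i
    rw [Pi.add_apply, Finset.sum_apply]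
    fin_cases i
    · simp only [wt, Fin.zero_eta, Matrix.cons_val_zero]
      have h1 : (a' + 1) * d = a' * d + d := by ring
      have h2 : (a' + 1) * b = (a' + 1) * d + 6 * (a' + 1) * m := by rw [hd]; ring
      omega
    · simp only [wt, Fin.mk_one, Matrix.cons_val_one, Matrix.cons_val_zero]
      rw [← hS]
      omega
    · simp only [wt, Fin.reduceFinMk, Matrix.cons_val]
      rw [← hS]
      omega
  rw [hw, ← hd] at hlow
  exact hup.trans hlow

end Vale.Agent.P181.H553
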