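import Vale.Agent.P181.R2.H553.Six2
import Vale.Agent.P181.R2.H644.BRows
import Vale.Agent.P181.R2.H770.ThreeBulkMeas
import Vale.Agent.P181.R2.H155.ThreeBulkRow4
import Vale.Agent.P181.R2.H330.ThreeBulk4cd
import Vale.Agent.P181.R2.H160.ThreeBulk6
import Vale.Agent.P181.R2.H853.ThreeBulk7

/-!
The family on six points and the nonzero functions of all weights far from the first wall.
-/

set_option autoImplicit false

open scoped TensorProduct
open MvPolynomial

namespace Vale.Agent.P181.H553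

open Vale.Agent.P181 Vale.Agent.P181.H280 Vale.Agent.P181.H179

/-- The family on six points. -/
theorem exists_six {a K₀ i j : ℕ} (h0 : 0 < i) (hK0 : 0 < K₀) (hk : Even (i + j)) (hK : Even K₀)
    (hj : j ≤ K₀) (hi : i + K₀ ≤ a)
    (hij : i + j ≤ a) :
    ∃ f : Meas → ℂ, HWF a 6 ![6 * a - 2 * (i + K₀), i + K₀, i + K₀] f ∧
      ∀ c : Meas,
        (∀ u v u' v', 0 < u + v → 0 < u' + v' → u + u' + (v + v') = i + j →
          mom a u v c * mom a u' v' c = 0) →
        (∀ u v u' v', 0 < u + v → 0 < u' + v' → u + u' + (v + v') = K₀ + i - j →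
          mom a u v c * mom a u' v' c = 0) →
        (∀ u v u' v', 0 < u + v → 0 < u' + v' → u + u' + (v + v') = K₀ →
          mom a u v c * mom a u' v' c = 0) →
        (∀ u v, u + v = K₀ + i - j → 0 < v → mom a u v c = 0) →
        (∀ u v, u + v = K₀ → 0 < u → mom a u v c = 0) →
        f c = 8 * (-1) ^ i * mom a 0 0 c ^ 3 * mom a j i c * mom a (K₀ + i - j) 0 c *
          mom a 0 K₀ c :=
  ⟨fun c => integ c (fun p => eval (fun s : Fin 6 × Fin 3 => p s.1 s.2) (Q6 a K₀ i j)),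
    hwf_of _ (multi_Q6 hj hi hij) (semi_Q6 hj hi hij),
    fun c H1 H2 H3 H4 H5 => value_Q6 h0 hK0 hk hK hj hi hij c H1 H2 H3 H4 H5⟩

/-- A nonzero function of every weight `(*, s, t)` far from the first wall. -/
theorem exists_E {a d s t : ℕ} (ha : 13 ≤ a) (ht : 13 ≤ t) (hts : t ≤ s) (h1 : s ≠ t + 1)
    (h : 2 * s + t + 14 * (a - 1) ≤ (a - 1) * d) :
    ∃ f : Meas → ℂ, f ≠ 0 ∧ HWF a d ![a * d - s - t, s, t] f :=
  exists_E_of_rows HWF.mul HWF.line exists_meas
    (fun a => Row4.exists_one_of (fun Q hQ hS => hwf_of Q hQ hS) a)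
    (fun a q => Row4.exists_two_of (fun Q hQ hS => hwf_of Q hQ hS) a q)
    (fun a q => exists_three_of (fun _ _ Q h1 h2 => hwf_of Q h1 h2) a q)
    (fun a => exists_odd_of (fun _ _ Q h1 h2 => hwf_of Q h1 h2) a)
    exists_six ha ht hts h1 h

end Vale.Agent.P181.H553
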