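import Vale.Agent.P181.R2.H553.Six

set_option autoImplicit false

open scoped TensorProduct
open MvPolynomial

namespace Vale.Agent.P181.H553

open Vale.Agent.P181 Vale.Agent.P181.H280 Vale.Agent.P181.H179

/-! ### The algebra identity -/

lemma tri (X : ℂ) (s t u : Finset ℕ) (f g h : ℕ → ℂ) :
    X * (∑ x ∈ s, f x) * (∑ y ∈ t, g y) * (∑ z ∈ u, h z) =
      ∑ x ∈ s ×ˢ (t ×ˢ u), X * f x.1 * g x.2.1 * h x.2.2 := by
  simp only [Finset.sum_product]
  rw [Finset.mul_sum s f X, Finset.sum_mul s _ (∑ y ∈ t, g y), Finset.sum_mul s _ (∑ z ∈ u, h z)]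
  refine Finset.sum_congr rfl (fun x _ => ?_)
  rw [Finset.mul_sum t g _, Finset.sum_mul t _ _]
  refine Finset.sum_congr rfl (fun y _ => ?_)
  rw [Finset.mul_sum u h _]

lemma triple (X₁ X₂ X₃ Y₁ Z₁ Y₂ Z₂ Y₃ Z₃ : ℂ) (i j n : ℕ) :
    X₁ * X₂ * X₃ * (Y₁ * Z₂ - Z₁ * Y₂) ^ i * (Y₁ * Z₃ - Z₁ * Y₃) ^ j * (Y₂ * Z₃ - Z₂ * Y₃) ^ n =
      ∑ x ∈ Finset.range (i + 1) ×ˢ (Finset.range (j + 1) ×ˢ Finset.range (n + 1)),
        ((-1) ^ (x.1 + x.2.1 + x.2.2) * (i.choose x.1 : ℂ) * (j.choose x.2.1 : ℂ) *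
          (n.choose x.2.2 : ℂ)) *
        ((X₁ * Y₁ ^ ((i - x.1) + (j - x.2.1)) * Z₁ ^ (x.1 + x.2.1)) *
          (X₂ * Y₂ ^ (x.1 + (n - x.2.2)) * Z₂ ^ ((i - x.1) + x.2.2)) *
          (X₃ * Y₃ ^ (x.2.1 + x.2.2) * Z₃ ^ ((j - x.2.1) + (n - x.2.2)))) := by
  rw [bin (Y₁ * Z₂), bin (Y₁ * Z₃), bin (Y₂ * Z₃)]
  rw [tri]
  refine Finset.sum_congr rfl (fun x _ => ?_)
  ring

/-! ### The polynomial -/

/-- `[pq]_y`. -/
noncomputable def Yb (p q : Fin 6) : MvPolynomial (Fin 6 × Fin 3) ℂ :=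
  X (p, 0) * X (q, 1) - X (q, 0) * X (p, 1)

/-- `[pq]_z`. -/
noncomputable def Zb (p q : Fin 6) : MvPolynomial (Fin 6 × Fin 3) ℂ :=
  X (p, 0) * X (q, 2) - X (q, 0) * X (p, 2)

/-- `[pq]_y [rs]_z - [pq]_z [rs]_y`. -/
noncomputable def Jb (p q r s : Fin 6) : MvPolynomial (Fin 6 × Fin 3) ℂ :=
  Yb p q * Zb r s - Zb p q * Yb r s

noncomputable def Xb (p q : Fin 6) : MvPolynomial (Fin 6 × Fin 3) ℂ := X (p, 0) * X (q, 0)

/-- The polynomial of the six-point family. -/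
noncomputable def Q6 (a K₀ i j : ℕ) : MvPolynomial (Fin 6 × Fin 3) ℂ :=
  Xb 0 1 ^ (a - (i + j)) * Xb 2 3 ^ (a - (K₀ + i - j)) * Xb 4 5 ^ (a - K₀) *
    Jb 0 1 2 3 ^ i * Jb 0 1 4 5 ^ j * Jb 2 3 4 5 ^ (K₀ - j)

lemma wX (l p : Fin 6) (t : Fin 3) :
    IsWeightedHomogeneous (fun s : Fin 6 × Fin 3 => if s.1 = l then 1 else 0)
      (X (p, t) : MvPolynomial (Fin 6 × Fin 3) ℂ) (if p = l then 1 else 0) := by
  have h := isWeightedHomogeneous_X (R := ℂ)
    (fun s : Fin 6 × Fin 3 => if s.1 = l then (1 : ℕ) else 0) (p, t)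
  exact h

lemma wXb (l p q : Fin 6) : IsWeightedHomogeneous (fun s : Fin 6 × Fin 3 => if s.1 = l then 1 else 0)
    (Xb p q) ((if p = l then 1 else 0) + (if q = l then 1 else 0)) :=
  (wX l p 0).mul (wX l q 0)

lemma wYb (l p q : Fin 6) : IsWeightedHomogeneous (fun s : Fin 6 × Fin 3 => if s.1 = l then 1 else 0)
    (Yb p q) ((if p = l then 1 else 0) + (if q = l then 1 else 0)) := by
  refine ((wX l p 0).mul (wX l q 1)).sub ?_
  have h := (wX l q 0).mul (wX l p 1)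
  rwa [add_comm] at h

lemma wZb (l p q : Fin 6) : IsWeightedHomogeneous (fun s : Fin 6 × Fin 3 => if s.1 = l then 1 else 0)
    (Zb p q) ((if p = l then 1 else 0) + (if q = l then 1 else 0)) := by
  refine ((wX l p 0).mul (wX l q 2)).sub ?_
  have h := (wX l q 0).mul (wX l p 2)
  rwa [add_comm] at h

lemma wJb (l p q r s : Fin 6) :
    IsWeightedHomogeneous (fun s : Fin 6 × Fin 3 => if s.1 = l then 1 else 0)
    (Jb p q r s) (((if p = l then 1 else 0) + (if q = l then 1 else 0)) +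
      ((if r = l then 1 else 0) + (if s = l then 1 else 0))) :=
  ((wYb l p q).mul (wZb l r s)).sub ((wZb l p q).mul (wYb l r s))

lemma multi_Q6 {a K₀ i j : ℕ} (hj : j ≤ K₀) (hi : i + K₀ ≤ a) (hij : i + j ≤ a) :
    Multi a 6 (Q6 a K₀ i j) := by
  intro l
  have h := (((((wXb l 0 1).pow (a - (i + j))).mul ((wXb l 2 3).pow (a - (K₀ + i - j)))).mul
    ((wXb l 4 5).pow (a - K₀))).mul ((wJb l 0 1 2 3).pow i)).mul ((wJb l 0 1 4 5).pow j) |>.mul
    ((wJb l 2 3 4 5).pow (K₀ - j))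
  unfold Q6
  convert h using 1
  fin_cases l <;> simp <;> omega

lemma eval_Yb {g : Matrix (Fin 3) (Fin 3) ℂ} (hg : IsBorel g) (v : Fin 6 → Pt) (p q : Fin 6) :
    eval (fun s : Fin 6 × Fin 3 => Matrix.vecMul (v s.1) g s.2) (Yb p q) =
      g 0 0 * g 1 1 * eval (fun s : Fin 6 × Fin 3 => v s.1 s.2) (Yb p q) := by
  have h1 := hg.1 1 0 (by decide)
  have h2 := hg.1 2 0 (by decide)
  have h3 := hg.1 2 1 (by decide)
  simp only [Yb, map_sub, map_mul, eval_X, Matrix.vecMul, dotProduct, Fin.sum_univ_three, h1, h2,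
    h3, mul_zero, add_zero]
  ring

lemma eval_Zb {g : Matrix (Fin 3) (Fin 3) ℂ} (hg : IsBorel g) (v : Fin 6 → Pt) (p q : Fin 6) :
    eval (fun s : Fin 6 × Fin 3 => Matrix.vecMul (v s.1) g s.2) (Zb p q) =
      g 0 0 * g 2 2 * eval (fun s : Fin 6 × Fin 3 => v s.1 s.2) (Zb p q) +
      g 0 0 * g 1 2 * eval (fun s : Fin 6 × Fin 3 => v s.1 s.2) (Yb p q) := by
  have h1 := hg.1 1 0 (by decide)
  have h2 := hg.1 2 0 (by decide)
  simp only [Zb, Yb, map_sub, map_mul, eval_X, Matrix.vecMul, dotProduct, Fin.sum_univ_three, h1,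
    h2, mul_zero, add_zero]
  ring

lemma eval_Jb {g : Matrix (Fin 3) (Fin 3) ℂ} (hg : IsBorel g) (v : Fin 6 → Pt) (p q r s : Fin 6) :
    eval (fun s : Fin 6 × Fin 3 => Matrix.vecMul (v s.1) g s.2) (Jb p q r s) =
      g 0 0 ^ 2 * g 1 1 * g 2 2 * eval (fun s : Fin 6 × Fin 3 => v s.1 s.2) (Jb p q r s) := by
  simp only [Jb, map_sub, map_mul, eval_Yb hg, eval_Zb hg]
  ring

lemma eval_Xb {g : Matrix (Fin 3) (Fin 3) ℂ} (hg : IsBorel g) (v : Fin 6 → Pt) (p q : Fin 6) :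
    eval (fun s : Fin 6 × Fin 3 => Matrix.vecMul (v s.1) g s.2) (Xb p q) =
      g 0 0 ^ 2 * eval (fun s : Fin 6 × Fin 3 => v s.1 s.2) (Xb p q) := by
  have h1 := hg.1 1 0 (by decide)
  have h2 := hg.1 2 0 (by decide)
  simp only [Xb, map_mul, eval_X, Matrix.vecMul, dotProduct, Fin.sum_univ_three, h1, h2,
    mul_zero, add_zero]
  ring

lemma semi_Q6 {a K₀ i j : ℕ} (hj : j ≤ K₀) (hi : i + K₀ ≤ a) (hij : i + j ≤ a) :
    Semi ![6 * a - 2 * (i + K₀), i + K₀, i + K₀] (Q6 a K₀ i j) := by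
  intro g hg v
  simp only [Q6, map_mul, map_pow, eval_Xb hg, eval_Jb hg]
  rw [Fin.prod_univ_three]
  simp only [Matrix.cons_val_zero, Matrix.cons_val_one, Matrix.cons_val]
  obtain ⟨n, rfl⟩ : ∃ n, K₀ = j + n := ⟨K₀ - j, by omega⟩
  have e0 : j + n - j = n := by omega
  have e1 : 6 * a - 2 * (i + (j + n)) = 2 * (a - (i + j)) + 2 * (a - (j + n + i - j)) +
    2 * (a - (j + n)) + 2 * i + 2 * j + 2 * n := by omega
  rw [e1, e0]
  ring

/-! ### The value -/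

lemma eval_Q6 (a K₀ i j : ℕ) (v : Fin 6 → Pt) :
    eval (fun s : Fin 6 × Fin 3 => v s.1 s.2) (Q6 a K₀ i j) =
      ∑ x ∈ Finset.range (i + 1) ×ˢ (Finset.range (j + 1) ×ˢ Finset.range (K₀ - j + 1)),
        ((-1) ^ (x.1 + x.2.1 + x.2.2) * (i.choose x.1 : ℂ) * (j.choose x.2.1 : ℂ) *
          ((K₀ - j).choose x.2.2 : ℂ)) *
        (((v 0 0 * v 1 0) ^ (a - (i + j)) * (v 0 0 * v 1 1 - v 1 0 * v 0 1) ^
            ((i - x.1) + (j - x.2.1)) * (v 0 0 * v 1 2 - v 1 0 * v 0 2) ^ (x.1 + x.2.1)) *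
          ((v 2 0 * v 3 0) ^ (a - (K₀ + i - j)) * (v 2 0 * v 3 1 - v 3 0 * v 2 1) ^
            (x.1 + (K₀ - j - x.2.2)) * (v 2 0 * v 3 2 - v 3 0 * v 2 2) ^ ((i - x.1) + x.2.2)) *
          ((v 4 0 * v 5 0) ^ (a - K₀) * (v 4 0 * v 5 1 - v 5 0 * v 4 1) ^
            (x.2.1 + x.2.2) * (v 4 0 * v 5 2 - v 5 0 * v 4 2) ^
              ((j - x.2.1) + (K₀ - j - x.2.2)))) := by
  rw [← triple]
  simp only [Q6, Xb, Yb, Zb, Jb, map_mul, map_pow, map_sub, eval_X]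

lemma integ_Q6 {a K₀ i j : ℕ} (hj : j ≤ K₀) (hi : i + K₀ ≤ a) (hij : i + j ≤ a) (c : Meas) :
    integ c (fun v => eval (fun s : Fin 6 × Fin 3 => v s.1 s.2) (Q6 a K₀ i j)) =
      ∑ x ∈ Finset.range (i + 1) ×ˢ (Finset.range (j + 1) ×ˢ Finset.range (K₀ - j + 1)),
        ((-1) ^ (x.1 + x.2.1 + x.2.2) * (i.choose x.1 : ℂ) * (j.choose x.2.1 : ℂ) *
          ((K₀ - j).choose x.2.2 : ℂ)) *
        (AA a ((i - x.1) + (j - x.2.1)) (x.1 + x.2.1) c *
          AA a (x.1 + (K₀ - j - x.2.2)) ((i - x.1) + x.2.2) c *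
          AA a (x.2.1 + x.2.2) ((j - x.2.1) + (K₀ - j - x.2.2)) c) := by
  simp only [eval_Q6]
  rw [integ_sum]
  refine Finset.sum_congr rfl (fun x hx => ?_)
  simp only [Finset.mem_product, Finset.mem_range] at hx
  rw [integ_smul]
  congr 1
  unfold AA
  rw [← integ_six]
  have e1 : (i - x.1) + (j - x.2.1) + (x.1 + x.2.1) = i + j := by omega
  have e2 : (x.1 + (K₀ - j - x.2.2)) + ((i - x.1) + x.2.2) = K₀ + i - j := by omega
  have e3 : (x.2.1 + x.2.2) + ((j - x.2.1) + (K₀ - j - x.2.2)) = K₀ := by omega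
  rw [e1, e2, e3]

lemma value_Q6 {a K₀ i j : ℕ} (h0 : 0 < i) (hK0 : 0 < K₀) (hk : Even (i + j)) (hK : Even K₀)
    (hj : j ≤ K₀) (hi : i + K₀ ≤ a) (hij : i + j ≤ a) (c : Meas)
    (H1 : ∀ u v u' v', 0 < u + v → 0 < u' + v' → u + u' + (v + v') = i + j →
          mom a u v c * mom a u' v' c = 0)
    (H2 : ∀ u v u' v', 0 < u + v → 0 < u' + v' → u + u' + (v + v') = K₀ + i - j →
          mom a u v c * mom a u' v' c = 0)
    (H3 : ∀ u v u' v', 0 < u + v → 0 < u' + v' → u + u' + (v + v') = K₀ →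
          mom a u v c * mom a u' v' c = 0)
    (H4 : ∀ u v, u + v = K₀ + i - j → 0 < v → mom a u v c = 0)
    (H5 : ∀ u v, u + v = K₀ → 0 < u → mom a u v c = 0) :
    integ c (fun v => eval (fun s : Fin 6 × Fin 3 => v s.1 s.2) (Q6 a K₀ i j)) =
      8 * (-1) ^ i * mom a 0 0 c ^ 3 * mom a j i c * mom a (K₀ + i - j) 0 c * mom a 0 K₀ c := by
  rw [integ_Q6 hj hi hij]
  have hKe : Even (K₀ + i - j) := by
    rw [Nat.even_iff] at *
    omega
  rw [Finset.sum_eq_single (i, (0, 0))]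
  · simp only [Nat.choose_self, Nat.choose_zero_right, Nat.cast_one, mul_one, add_zero,
      Nat.sub_self, zero_add, Nat.sub_zero]
    rw [AA_eq a j i (by omega) (by omega) (by rwa [add_comm]) c (by
        intro u v u' v' h1 h2 h3
        exact H1 u v u' v' h1 h2 (by omega)),
      AA_eq a (i + (K₀ - j)) 0 (by omega) (by omega) (by
        rw [Nat.even_iff] at *
        omega) c (by
        intro u v u' v' h1 h2 h3
        exact H2 u v u' v' h1 h2 (by omega)),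
      AA_eq a 0 (j + (K₀ - j)) (by omega) (by omega) (by
        rw [Nat.even_iff] at *
        omega) c (by
        intro u v u' v' h1 h2 h3
        exact H3 u v u' v' h1 h2 (by omega))]
    have e1 : i + (K₀ - j) = K₀ + i - j := by omega
    have e2 : j + (K₀ - j) = K₀ := by omega
    rw [e1, e2]
    ring
  · rintro ⟨x, y, z⟩ hx hne
    simp only [Finset.mem_product, Finset.mem_range] at hx
    simp only
    rcases Nat.eq_zero_or_pos (y + z) with h | h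
    · have hy : y = 0 := by omega
      have hz : z = 0 := by omega
      subst hy; subst hz
      have hxi : x ≠ i := fun h => hne (by rw [h])
      rw [AA_eq a (x + (K₀ - j - 0)) ((i - x) + 0) (by omega) (by omega) (by
        rw [Nat.even_iff] at *
        omega) c (by
        intro u v u' v' h1 h2 h3
        exact H2 u v u' v' h1 h2 (by omega)), H4 (x + (K₀ - j - 0)) ((i - x) + 0) (by omega)
          (by omega)]
      ring
    · rw [AA_eq a (y + z) ((j - y) + (K₀ - j - z)) (by omega) (by omega) (by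
        rw [Nat.even_iff] at *
        omega) c (by
        intro u v u' v' h1 h2 h3
        exact H3 u v u' v' h1 h2 (by omega)), H5 (y + z) ((j - y) + (K₀ - j - z)) (by omega) h]
      ring
  · intro h
    exact absurd (by
      simp only [Finset.mem_product, Finset.mem_range]
      exact ⟨Nat.lt_succ_self _, Nat.succ_pos _, Nat.succ_pos _⟩) h

end Vale.Agent.P181.H553
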