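import Vale.Agent.P181.R2.H182.VDefs
import Vale.Agent.P181.R2.H822.W5
import Vale.Agent.P181.R2.H425.W11
import Vale.Agent.P181.R2.H684.W10
import Vale.Agent.P181.R2.H415.DimGe
import Vale.Agent.P181.R2.H539.Fac
import Vale.Agent.P181.R2.H280.AllWide

/-!
P181, Theorem V, row V9: Foulkes' inequality for all `b ≥ (1 + δ) a` and all partitions with at
most `n + 3` rows whose last row is at least `κ a b`, from row V7.
-/

set_option autoImplicit false

open scoped TensorProduct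

namespace Vale.Agent.P181.VT

open Vale.Agent.P181 Vale.Agent.P181.H280 Vale.Agent.P181.FR

/-- The numbers of V9. -/
def V9Num : Prop := ∀ (n : ℕ) {δ κ : ℝ}, 0 < δ → 0 < κ → ∀ (K C1 N0 N1 N : ℕ), 0 < N →
  ∃ A : ℕ, ∀ a b : ℕ, A ≤ a → (1 + δ) * a ≤ b → b ≤ C1 * a → ∃ k c h s : ℕ,
    (n + 3) ∣ k * N ∧ K ≤ k * N ∧ K + (3 * (n + 3) * c + N0) ≤ a ∧ k * N + K ≤ b ∧
    ((3 * (k * N * c) + k * N1 + K * a : ℕ) : ℝ) ≤ κ * (a * b) ∧ (n + 2) * h ≤ c ∧
    s * (k * N) ≤ h ^ (n + 2) ∧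
    ∀ L : ℕ, a.factorial * L ≤ ((b + 1) ^ (n + 2) + a) ^ a →
      L * (k * N * c + 1) ^ ((n + 3) * (n + 3)) ≤ s ^ (k * N)

theorem v9_of
    (h7 : ∀ r : ℕ, 1 ≤ r → ∃ N0 N1 : ℕ, ∀ k c : ℕ,
      Module.finrank ℂ (Pleth (k * nn r) c (r + 1)) ≤
        (k * nn r * c + 1) ^ ((r + 1) * (r + 1)) *
          plethMult (k * nn r) (3 * (r + 1) * c + N0) (r + 1)
            ((3 * (k * nn r * c) + k * N1) • om (r + 1) (r + 1)))
    (hcore : ∀ {m i : ℕ}, 2 ≤ i → i ≤ m → ∃ K : ℕ, ∀ (a b B c S : ℕ) (u g : ℕ → ℕ),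
      i ∣ B → K ≤ B → K + c ≤ a → B + K ≤ b → (∀ j, u j ≤ g j) →
      ∑ j ∈ Finset.Icc 1 m, j * u j = c * B → ∑ j ∈ Finset.Icc 1 m, j * g j = a * b →
      u i + K * a ≤ g i → S ≤ plethMult B c m (gw m u) → S ≤ plethMult b a m (gw m g))
    (hpure : ∀ {m i : ℕ}, 3 ≤ i → i ≤ m → ∀ {ε : ℝ}, 0 < ε →
      ∃ C : ℝ, 0 < C ∧ ∀ (a b : ℕ) (g : ℕ → ℕ), C * a ≤ b →
      ∑ j ∈ Finset.Icc 1 m, j * g j = a * b → C * (a : ℝ) ^ (3 / 2 + ε) ≤ g i →
      plethMult a b m (gw m g) ≤ plethMult b a m (gw m g))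
    (hnum : V9Num) (n : ℕ) {δ κ : ℝ} (hδ : 0 < δ) (hκ : 0 < κ) : ∃ A : ℕ, ∀ (a b : ℕ)
    (lam : Fin (n + 3) → ℕ), A ≤ a → (1 + δ) * a ≤ b → κ * (a * b) ≤ lam (Fin.last _) →
    plethMult a b (n + 3) lam ≤ plethMult b a (n + 3) lam := by
  obtain ⟨N0, N1, h7⟩ := h7 (n + 2) (by omega)
  obtain ⟨K, hcore⟩ := hcore (m := n + 3) (i := n + 3) (by omega) le_rfl
  obtain ⟨C1, hC1, hpure⟩ := hpure (m := n + 3) (i := n + 3) (by omega) le_rfl (ε := 1 / 4)
    (by norm_num)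
  obtain ⟨A1, hA1⟩ := hnum n hδ hκ K ⌈C1⌉₊ N0 N1 (nn (n + 2)) (by unfold nn; omega)
  refine ⟨A1 + ⌈(C1 / κ) ^ 4⌉₊ + 1, fun a b lam hA hab hlast => ?_⟩
  by_cases hz : plethMult a b (n + 3) lam = 0
  · rw [hz]
    exact Nat.zero_le _
  have hne : hwSpace lam (plethAct a b (n + 3)) ≠ ⊥ := by
    intro h
    apply hz
    rw [plethMult, h, finrank_bot]
  obtain ⟨x, hx, hx0⟩ := Submodule.exists_mem_ne_zero_of_ne_bot hne
  have hanti := hw_antitone hx hx0
  have hsum : ∑ i, lam i = a * b := hw_sum hx hx0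
  have hsg : ∑ j ∈ Finset.Icc 1 (n + 3), j * W11.gap lam j = a * b := by
    rw [W11.sum_gap hanti, hsum]
  have hgl : W11.gap lam (n + 3) = lam (Fin.last _) := by
    rw [W11.gap, W11.ext, W11.ext, dif_pos (by omega), dif_neg (by omega), Nat.sub_zero]
    rfl
  have hgw : gw (n + 3) (W11.gap lam) = lam := W11.gw_gap hanti
  have ha1 : (1 : ℝ) ≤ a := by exact_mod_cast (by omega : 1 ≤ a)
  have ha0 : (0 : ℝ) < a := by linarith
  have hba : (a : ℝ) ≤ b := by nlinarith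
  have hb0 : (0 : ℝ) < b := by linarith
  by_cases hC : C1 * a ≤ b
  · have h1 := hpure a b (W11.gap lam) hC hsg (by
      rw [hgl]
      refine le_trans ?_ hlast
      have h2 : (C1 / κ) ^ 4 ≤ a := by
        have := Nat.le_ceil ((C1 / κ) ^ 4)
        have h3 : ((A1 + ⌈(C1 / κ) ^ 4⌉₊ + 1 : ℕ) : ℝ) ≤ a := by exact_mod_cast hA
        push_cast at h3
        have h4 : (0 : ℝ) ≤ A1 := Nat.cast_nonneg _
        linarith
      have h5 : C1 / κ ≤ (a : ℝ) ^ ((1 : ℝ) / 4) := by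
        have h6 : ((C1 / κ) ^ 4) ^ ((1 : ℝ) / 4) ≤ (a : ℝ) ^ ((1 : ℝ) / 4) :=
          Real.rpow_le_rpow (by positivity) h2 (by norm_num)
        rw [← Real.rpow_natCast, ← Real.rpow_mul (by positivity)] at h6
        norm_num at h6
        norm_num
        exact h6
      have h7 : (a : ℝ) ^ ((3 : ℝ) / 2 + 1 / 4) * (a : ℝ) ^ ((1 : ℝ) / 4) = a * a := by
        rw [← Real.rpow_add ha0]
        norm_num
        ring
      have h8 : (0 : ℝ) < (a : ℝ) ^ ((3 : ℝ) / 2 + 1 / 4) := Real.rpow_pos_of_pos ha0 _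
      have h9 : C1 ≤ κ * (a : ℝ) ^ ((1 : ℝ) / 4) := by
        rw [div_le_iff₀ hκ] at h5
        linarith
      calc C1 * (a : ℝ) ^ ((3 : ℝ) / 2 + 1 / 4)
          ≤ κ * (a : ℝ) ^ ((1 : ℝ) / 4) * (a : ℝ) ^ ((3 : ℝ) / 2 + 1 / 4) :=
            mul_le_mul_of_nonneg_right h9 h8.le
        _ = κ * (a * a) := by rw [← h7]; ring
        _ ≤ κ * (a * b) := by
            apply mul_le_mul_of_nonneg_left _ hκ.le
            exact mul_le_mul_of_nonneg_left hba ha0.le)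
    rwa [hgw] at h1
  · push Not at hC
    have hC' : b ≤ ⌈C1⌉₊ * a := by
      have h1 : (b : ℝ) ≤ (⌈C1⌉₊ : ℝ) * a :=
        hC.le.trans (mul_le_mul_of_nonneg_right (Nat.le_ceil C1) ha0.le)
      exact_mod_cast h1
    obtain ⟨k, c, h, s, hdvd, hKB, hKc, hBb, hκc, hh, hs, hL⟩ := hA1 a b (by omega) hab hC'
    have hup := hL _ (plethMult_le_fac a b (n + 2) lam)
    have hdim := dim_ge (b := k * nn (n + 2)) (c := c) (n := n) (h := h) (s := s) hh hs
    have h7' := h7 k c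
    have hSle : plethMult a b (n + 3) lam ≤
        plethMult (k * nn (n + 2)) (3 * (n + 3) * c + N0) (n + 3)
          ((3 * (k * nn (n + 2) * c) + k * N1) • om (n + 3) (n + 3)) := by
      have h9 : (k * nn (n + 2) * c + 1) ^ ((n + 3) * (n + 3)) * plethMult a b (n + 3) lam ≤
          (k * nn (n + 2) * c + 1) ^ ((n + 3) * (n + 3)) *
            plethMult (k * nn (n + 2)) (3 * (n + 3) * c + N0) (n + 3)
              ((3 * (k * nn (n + 2) * c) + k * N1) • om (n + 3) (n + 3)) := by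
        rw [mul_comm]
        exact (hup.trans hdim).trans h7'
      exact le_of_mul_le_mul_left h9 (Nat.pow_pos (Nat.succ_pos _))
    set B := k * nn (n + 2) with hBdef
    set c' := 3 * (n + 3) * c + N0 with hc'
    set U := 3 * (B * c) + k * N1 with hU
    have hz2 : plethMult B c' (n + 3) (U • om (n + 3) (n + 3)) ≠ 0 := by
      intro h
      rw [h] at hSle
      exact hz (Nat.le_zero.1 hSle)
    have hne2 : hwSpace (U • om (n + 3) (n + 3)) (plethAct B c' (n + 3)) ≠ ⊥ := by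
      intro h
      apply hz2
      rw [plethMult, h, finrank_bot]
    obtain ⟨y, hy, hy0⟩ := Submodule.exists_mem_ne_zero_of_ne_bot hne2
    have hsumU : (n + 3) * U = B * c' := by
      have h1 := hw_sum hy hy0
      rw [← h1]
      rw [Finset.sum_congr rfl (fun i _ => show (U • om (n + 3) (n + 3)) i = U by
        simp [om, i.2])]
      simp
    have hgs : gw (n + 3) (Pi.single (n + 3) U) = U • om (n + 3) (n + 3) :=
      H822W.gw_single U le_rfl
    rw [← hgs] at hSle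
    have hUg : U + K * a ≤ W11.gap lam (n + 3) := by
      rw [hgl]
      exact_mod_cast hκc.trans hlast
    have hfin := hcore a b B c' (plethMult a b (n + 3) lam) (Pi.single (n + 3) U)
      (W11.gap lam) hdvd hKB hKc hBb
      (by
        intro j
        by_cases hj : j = n + 3
        · subst hj
          rw [Pi.single_eq_same]
          omega
        · rw [Pi.single_eq_of_ne hj]
          exact Nat.zero_le _)
      (by rw [H822W.sum_single U (by omega) le_rfl, hsumU, mul_comm]) hsg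
      (by rw [Pi.single_eq_same]; exact hUg) hSle
    rwa [hgw] at hfin

end Vale.Agent.P181.VT
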